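import Mathlib

/-!
# Finite decomposition into irreducible components with respect to a multiplicative set of
test functions
-/

namespace Vale.Agent.P002.H265

open MvPolynomial

section comp

variable {σ T : Type*} (ev : T → (MvPolynomial σ ℂ →+* ℂ)) (A : Submonoid (MvPolynomial σ ℂ))

/-- irreducible with respect to the test functions in `A` -/
def IsIrr (Z : Set T) : Prop :=
  Z.Nonempty ∧ ∀ F ∈ A, ∀ G ∈ A, (∀ X ∈ Z, ev X F = 0 ∨ ev X G = 0) →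
    (∀ X ∈ Z, ev X F = 0) ∨ (∀ X ∈ Z, ev X G = 0)

/-- maximal irreducible subsets of `Y` -/
def IsComp (Y Z : Set T) : Prop :=
  Z ⊆ Y ∧ IsIrr ev A Z ∧ ∀ Z' ⊆ Y, IsIrr ev A Z' → Z ⊆ Z' → Z' = Z

variable {ev A}

/-- irreducibility for finite products -/
theorem IsIrr.prod {Z : Set T} (hZ : IsIrr ev A Z) {J : Type*} (s : Finset J)
    (F : J → MvPolynomial σ ℂ) (hF : ∀ j ∈ s, F j ∈ A)
    (h : ∀ X ∈ Z, ∃ j ∈ s, ev X (F j) = 0) : ∃ j ∈ s, ∀ X ∈ Z, ev X (F j) = 0 := by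
  classical
  induction s using Finset.induction_on with
  | empty =>
    obtain ⟨X, hX⟩ := hZ.1
    obtain ⟨j, hj, -⟩ := h X hX
    exact absurd hj (Finset.notMem_empty j)
  | insert a s ha ih =>
    have h1 := hZ.2 (F a) (hF a (Finset.mem_insert_self a s)) (∏ j ∈ s, F j)
      (A.prod_mem fun j hj => hF j (Finset.mem_insert_of_mem hj)) (fun X hX => by
        obtain ⟨j, hj, hj'⟩ := h X hX
        rcases Finset.mem_insert.1 hj with rfl | hj
        · exact Or.inl hj'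
        · right
          rw [map_prod]
          exact Finset.prod_eq_zero hj hj')
    rcases h1 with h1 | h1
    · exact ⟨a, Finset.mem_insert_self a s, h1⟩
    · obtain ⟨j, hj, hj'⟩ := ih (fun j hj => hF j (Finset.mem_insert_of_mem hj)) fun X hX => by
        have h2 := h1 X hX
        rw [map_prod, Finset.prod_eq_zero_iff] at h2
        exact h2
      exact ⟨j, Finset.mem_insert_of_mem hj, hj'⟩

theorem isIrr_singleton (X : T) : IsIrr ev A {X} := by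
  refine ⟨⟨X, rfl⟩, fun F _ G _ h => ?_⟩
  rcases h X rfl with h1 | h1
  · left
    rintro Y rfl
    exact h1
  · right
    rintro Y rfl
    exact h1

/-- every set is a finite union of irreducible sets -/
theorem exists_finite_union [Finite σ] (S : Set T) :
    ∃ C : Set (Set T), C.Finite ∧ (∀ Z ∈ C, IsIrr ev A Z) ∧ ⋃₀ C = S := by
  obtain ⟨J, hJ⟩ : ∃ J : Set T → Ideal (MvPolynomial σ ℂ), ∀ S, J S =
      Ideal.span {F | F ∈ A ∧ ∀ X ∈ S, ev X F = 0} := ⟨_, fun S => rfl⟩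
  have hmono : ∀ S S' : Set T, S' ⊆ S → J S ≤ J S' := by
    intro S S' h
    rw [hJ, hJ]
    exact Ideal.span_mono fun F hF => ⟨hF.1, fun X hX => hF.2 X (h hX)⟩
  have hvan : ∀ (S : Set T) F, F ∈ J S → ∀ X ∈ S, ev X F = 0 := by
    intro S F hF X hX
    have h1 : J S ≤ RingHom.ker (ev X) := by
      rw [hJ, Ideal.span_le]
      intro G hG
      exact hG.2 X hX
    exact h1 hF
  have hlt : ∀ (S : Set T) F, F ∈ A → (¬ ∀ X ∈ S, ev X F = 0) → J S < J {X ∈ S | ev X F = 0} := by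
    intro S F hF hne
    refine lt_of_le_of_ne (hmono _ _ fun X hX => hX.1) fun heq => hne (hvan S F ?_)
    rw [heq, hJ]
    exact Ideal.subset_span ⟨hF, fun X hX => hX.2⟩
  have key : ∀ (I : Ideal (MvPolynomial σ ℂ)) (S : Set T), J S = I →
      ∃ C : Set (Set T), C.Finite ∧ (∀ Z ∈ C, IsIrr ev A Z) ∧ ⋃₀ C = S := by
    intro I
    induction I using (wellFounded_gt (α := Ideal (MvPolynomial σ ℂ))).induction with
    | _ I ih =>
    intro S hS
    by_cases hne : S.Nonempty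
    swap
    · refine ⟨∅, Set.finite_empty, fun Z hZ => absurd hZ (Set.notMem_empty Z), ?_⟩
      rw [Set.sUnion_empty, Set.not_nonempty_iff_eq_empty.1 hne]
    by_cases hirr : IsIrr ev A S
    · exact ⟨{S}, Set.finite_singleton S, fun Z hZ => by
        rw [Set.mem_singleton_iff.1 hZ]; exact hirr, Set.sUnion_singleton S⟩
    have h1 : ∃ F ∈ A, ∃ G ∈ A, (∀ X ∈ S, ev X F = 0 ∨ ev X G = 0) ∧ (¬ ∀ X ∈ S, ev X F = 0) ∧
        ¬ ∀ X ∈ S, ev X G = 0 := by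
      by_contra hcon
      apply hirr
      refine ⟨hne, fun F hF G hG h => ?_⟩
      by_contra h2
      push Not at h2
      exact hcon ⟨F, hF, G, hG, h, by push Not; exact h2.1, by push Not; exact h2.2⟩
    obtain ⟨F, hF, G, hG, hFG, hF', hG'⟩ := h1
    obtain ⟨C1, h11, h12, h13⟩ := ih _ (by rw [← hS]; exact hlt S F hF hF') {X ∈ S | ev X F = 0} rfl
    obtain ⟨C2, h21, h22, h23⟩ := ih _ (by rw [← hS]; exact hlt S G hG hG') {X ∈ S | ev X G = 0} rfl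
    refine ⟨C1 ∪ C2, h11.union h21, fun Z hZ => hZ.elim (h12 Z) (h22 Z), ?_⟩
    rw [Set.sUnion_union, h13, h23]
    ext X
    constructor
    · rintro (hX | hX)
      · exact hX.1
      · exact hX.1
    · intro hX
      rcases hFG X hX with h2 | h2
      · exact Or.inl ⟨hX, h2⟩
      · exact Or.inr ⟨hX, h2⟩
  exact key _ S rfl

/-- the relative closure -/
def rcl (ev : T → (MvPolynomial σ ℂ →+* ℂ)) (A : Submonoid (MvPolynomial σ ℂ)) (Y Z : Set T) :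
    Set T := {X ∈ Y | ∀ F ∈ A, (∀ X' ∈ Z, ev X' F = 0) → ev X F = 0}

theorem subset_rcl {Y Z : Set T} (h : Z ⊆ Y) : Z ⊆ rcl ev A Y Z :=
  fun X hX => ⟨h hX, fun _ _ hF => hF X hX⟩

theorem rcl_subset {Y Z : Set T} : rcl ev A Y Z ⊆ Y := fun _ hX => hX.1

theorem IsIrr.rcl {Y Z : Set T} (hZ : IsIrr ev A Z) (h : Z ⊆ Y) : IsIrr ev A (rcl ev A Y Z) := by
  refine ⟨hZ.1.mono (subset_rcl h), fun F hF G hG hFG => ?_⟩
  rcases hZ.2 F hF G hG (fun X hX => hFG X (subset_rcl h hX)) with h1 | h1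
  · exact Or.inl fun X hX => hX.2 F hF h1
  · exact Or.inr fun X hX => hX.2 G hG h1

/-- components are relatively closed -/
theorem IsComp.closed {Y Z : Set T} (hZ : IsComp ev A Y Z) {X : T} (hX : X ∈ Y)
    (h : ∀ F ∈ A, (∀ X' ∈ Z, ev X' F = 0) → ev X F = 0) : X ∈ Z := by
  have h1 := hZ.2.2 _ rcl_subset (hZ.2.1.rcl hZ.1) (subset_rcl hZ.1)
  rw [← h1]
  exact ⟨hX, h⟩

/-- The set `Y` is the union of its components, and there are finitely many components; a test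
function vanishes on all components except one. -/
theorem finite_components' [Finite σ] (ev : T → (MvPolynomial σ ℂ →+* ℂ))
    (A : Submonoid (MvPolynomial σ ℂ)) (Y : Set T) :
    ∃ (n : ℕ) (Z : Fin n → Set T), (∀ i, IsComp ev A Y (Z i)) ∧ (⋃ i, Z i) = Y ∧
      (∀ W, IsComp ev A Y W → ∃ i, W = Z i) ∧ Function.Injective Z ∧
      (∀ W ⊆ Y, IsIrr ev A W → ∃ i, W ⊆ Z i) ∧
      ∀ i, ∃ G ∈ A, (∀ j, j ≠ i → ∀ X ∈ Z j, ev X G = 0) ∧ ∃ X ∈ Z i, ev X G ≠ 0 := by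
  classical
  obtain ⟨C, hC, hC1, hC2⟩ := exists_finite_union (ev := ev) (A := A) Y
  have hCY : ∀ Z ∈ C, Z ⊆ Y := fun Z hZ => hC2 ▸ Set.subset_sUnion_of_mem hZ
  obtain ⟨D, hD⟩ : ∃ D : Set (Set T), D = rcl ev A Y '' C := ⟨_, rfl⟩
  have hDf : D.Finite := by rw [hD]; exact hC.image _
  have hDirr : ∀ Z ∈ D, IsIrr ev A Z ∧ Z ⊆ Y ∧
      ∀ X ∈ Y, (∀ F ∈ A, (∀ X' ∈ Z, ev X' F = 0) → ev X F = 0) → X ∈ Z := by
    rw [hD]
    rintro _ ⟨Z, hZ, rfl⟩
    refine ⟨(hC1 Z hZ).rcl (hCY Z hZ), rcl_subset, fun X hX h => ⟨hX, fun F hF hFZ => ?_⟩⟩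
    exact h F hF fun X' hX' => hX'.2 F hF hFZ
  -- irreducible sets are contained in a member of `D`
  have hin : ∀ W ⊆ Y, IsIrr ev A W → ∃ Z ∈ D, W ⊆ Z := by
    intro W hW hWirr
    by_contra hcon
    push Not at hcon
    have h1 : ∀ Z ∈ D, ∃ F ∈ A, (∀ X' ∈ Z, ev X' F = 0) ∧ ∃ X ∈ W, ev X F ≠ 0 := by
      intro Z hZ
      by_contra h2
      apply hcon Z hZ
      intro X hX
      refine (hDirr Z hZ).2.2 X (hW hX) fun F hF hFZ => ?_
      by_contra h3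
      exact h2 ⟨F, hF, hFZ, X, hX, h3⟩
    choose! F hF hFZ hFW using h1
    obtain ⟨Z, hZ, hZ'⟩ := hWirr.prod hDf.toFinset F
      (fun Z hZ => hF Z (hDf.mem_toFinset.1 hZ)) (fun X hX => by
        have hXY := hW hX
        rw [← hC2] at hXY
        obtain ⟨Z, hZ, hXZ⟩ := hXY
        have h2 : rcl ev A Y Z ∈ D := by rw [hD]; exact ⟨Z, hZ, rfl⟩
        exact ⟨_, hDf.mem_toFinset.2 h2, hFZ _ h2 X (subset_rcl (hCY Z hZ) hXZ)⟩)
    obtain ⟨X, hX, hX'⟩ := hFW Z (hDf.mem_toFinset.1 hZ)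
    exact hX' (hZ' X hX)
  -- the maximal members of `D`
  obtain ⟨M, hM⟩ : ∃ M : Set (Set T), M = {Z ∈ D | ∀ Z' ∈ D, Z ⊆ Z' → Z' = Z} := ⟨_, rfl⟩
  have hMf : M.Finite := hDf.subset (by rw [hM]; exact fun Z hZ => hZ.1)
  have hMD : ∀ Z ∈ D, ∃ Z' ∈ M, Z ⊆ Z' := by
    intro Z hZ
    obtain ⟨Z', hZZ', hZ'⟩ := hDf.exists_le_maximal hZ
    refine ⟨Z', ?_, hZZ'⟩
    rw [hM]
    exact ⟨hZ'.prop, fun Z'' h1 h2 => le_antisymm (hZ'.le_of_ge h1 h2) h2⟩
  have hinM : ∀ W ⊆ Y, IsIrr ev A W → ∃ Z ∈ M, W ⊆ Z := by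
    intro W hW hWirr
    obtain ⟨Z, hZ, hWZ⟩ := hin W hW hWirr
    obtain ⟨Z', hZ', hZZ'⟩ := hMD Z hZ
    exact ⟨Z', hZ', hWZ.trans hZZ'⟩
  have hMcomp : ∀ Z ∈ M, IsComp ev A Y Z := by
    intro Z hZ
    have hZ0 := hZ
    rw [hM] at hZ0
    refine ⟨(hDirr Z hZ0.1).2.1, (hDirr Z hZ0.1).1, fun Z' hZ'Y hZ'irr hZZ' => ?_⟩
    obtain ⟨Z'', hZ'', h1⟩ := hinM Z' hZ'Y hZ'irr
    rw [hM] at hZ''
    have h2 := hZ0.2 Z'' hZ''.1 (hZZ'.trans h1)
    exact le_antisymm (h1.trans (le_of_eq h2)) hZZ'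
  obtain ⟨n, ⟨e⟩⟩ : ∃ n, Nonempty (M ≃ Fin n) := by
    have := hMf.to_subtype
    exact ⟨_, ⟨Finite.equivFin M⟩⟩
  obtain ⟨Z, hZ⟩ : ∃ Z : Fin n → Set T, ∀ i, Z i = (e.symm i).1 := ⟨_, fun i => rfl⟩
  have hZM : ∀ i, Z i ∈ M := fun i => by rw [hZ]; exact (e.symm i).2
  have hMZ : ∀ W ∈ M, ∃ i, W = Z i := fun W hW => ⟨e ⟨W, hW⟩, by
    rw [hZ, Equiv.symm_apply_apply]⟩
  have hinj : Function.Injective Z := by
    intro i j hij
    rw [hZ, hZ] at hij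
    exact e.symm.injective (Subtype.ext hij)
  have hinZ : ∀ W ⊆ Y, IsIrr ev A W → ∃ i, W ⊆ Z i := by
    intro W hW hWirr
    obtain ⟨Z', hZ', h1⟩ := hinM W hW hWirr
    obtain ⟨i, rfl⟩ := hMZ Z' hZ'
    exact ⟨i, h1⟩
  refine ⟨n, Z, fun i => hMcomp _ (hZM i), ?_, ?_, hinj, hinZ, fun i => ?_⟩
  · apply le_antisymm
    · exact Set.iUnion_subset fun i => (hMcomp _ (hZM i)).1
    · intro X hX
      obtain ⟨i, hi⟩ := hinZ {X} (Set.singleton_subset_iff.2 hX) (isIrr_singleton X)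
      exact Set.mem_iUnion.2 ⟨i, hi rfl⟩
  · intro W hW
    obtain ⟨i, hi⟩ := hinZ W hW.1 hW.2.1
    exact ⟨i, (hW.2.2 _ (hMcomp _ (hZM i)).1 (hMcomp _ (hZM i)).2.1 hi).symm⟩
  · have h1 : ∀ j, j ≠ i → ∃ F ∈ A, (∀ X' ∈ Z j, ev X' F = 0) ∧ ∃ X ∈ Z i, ev X F ≠ 0 := by
      intro j hj
      by_contra h2
      have h3 : Z i ⊆ Z j := by
        intro X hX
        refine (hMcomp _ (hZM j)).closed ((hMcomp _ (hZM i)).1 hX) fun F hF hFZ => ?_
        by_contra h3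
        exact h2 ⟨F, hF, hFZ, X, hX, h3⟩
      have h4 := (hMcomp _ (hZM i)).2.2 _ (hMcomp _ (hZM j)).1 (hMcomp _ (hZM j)).2.1 h3
      exact hj (hinj h4)
    choose! F hF hFZ hFi using h1
    refine ⟨∏ j ∈ Finset.univ.erase i, F j, A.prod_mem fun j hj => hF j (Finset.ne_of_mem_erase hj),
      fun j hj X hX => ?_, ?_⟩
    · rw [map_prod]
      exact Finset.prod_eq_zero (Finset.mem_erase.2 ⟨hj, Finset.mem_univ j⟩) (hFZ j hj X hX)
    · by_contra hcon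
      push Not at hcon
      obtain ⟨j, hj, hj'⟩ := (hMcomp _ (hZM i)).2.1.prod (Finset.univ.erase i) F
        (fun j hj => hF j (Finset.ne_of_mem_erase hj)) (fun X hX => by
          have h2 := hcon X hX
          rw [map_prod, Finset.prod_eq_zero_iff] at h2
          exact h2)
      obtain ⟨X, hX, hX'⟩ := hFi j (Finset.ne_of_mem_erase hj)
      exact hX' (hj' X hX)

/-- the form without the extra conclusions -/
theorem finite_components [Finite σ] (ev : T → (MvPolynomial σ ℂ →+* ℂ))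
    (A : Submonoid (MvPolynomial σ ℂ)) (Y : Set T) :
    ∃ (n : ℕ) (Z : Fin n → Set T), (∀ i, IsComp ev A Y (Z i)) ∧ (⋃ i, Z i) = Y ∧
      ∀ W, IsComp ev A Y W → ∃ i, W = Z i := by
  obtain ⟨n, Z, h1, h2, h3, -⟩ := finite_components' ev A Y
  exact ⟨n, Z, h1, h2, h3⟩

end comp

end Vale.Agent.P002.H265
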